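import Vale.Agent.Lib.P039.Basic

/-!
Hamiltonicity of cubic maps with properly 3-coloured faces whose colour-2 faces are linked
through faces of length dividing 4.

A cubic map on the finite vertex set `V` is encoded by its darts `V × Fin 3`: the rotation is
`nextDart (v, i) = (v, i + 1)`, the edge involution is `α`, and the faces are the orbits of
`faceStep α = nextDart ∘ α`.  A colouring `col` of the darts that is constant along faces and
takes three different values at each vertex is a proper 3-colouring of the faces (two faces
sharing an edge get different colours; such a `col` forces `α` to be fixed-point free).
Every cubic bipartite plane graph is of this form, taking the rotation system of the embedding.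

`SquareLink α col v w` says that `v`, `w` lie on a common face of colour `2` or on a common face
whose length divides `4`.  If any two vertices are connected by links, the underlying simple
graph is Hamiltonian.  No planarity is assumed.
-/

namespace Vale.Agent.Results.P039.SquareLinked

open Vale.Agent.Lib.P039 in
theorem result {V : Type} [Fintype V] [DecidableEq V] (α : Equiv.Perm (V × Fin 3))
    (hα : ∀ d, α (α d) = d) (col : V × Fin 3 → Fin 3)
    (hface : ∀ d, col (faceStep α d) = col d)
    (hvert : ∀ v, Function.Injective fun i => col (v, i))
    (hlink : ∀ a b, Relation.EqvGen (SquareLink α col) a b)
    (hcard : 3 ≤ Fintype.card V) :
    (mapGraph α).IsHamiltonian :=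
  isHamiltonian_of_links α hα col hface hvert hlink hcard

end Vale.Agent.Results.P039.SquareLinked
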