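import Vale.Agent.Results.P039.AdjacentSquares
import Vale.Agent.Results.P039.SquareLinked

open Vale.Agent.Lib.P039

namespace Vale.Agent.Results.P039.A0Conj

/-- Two sufficient conditions for Hamiltonicity of properly three face coloured cubic maps. -/
theorem result :
    (∀ {V : Type} [Fintype V] [DecidableEq V] (α : Equiv.Perm (V × Fin 3))
    (hα : ∀ d, α (α d) = d) (col : V × Fin 3 → Fin 3)
    (hface : ∀ d, col (faceStep α d) = col d)
    (hvert : ∀ v, Function.Injective fun i => col (v, i))
    (hconn : (mapGraph α).Connected)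
    (hsq : ∀ d, col d = 0 → col (α d) = 1 →
      (faceStep α)^[4] d = d ∨ (faceStep α)^[4] (α d) = α d)
    (hcard : 3 ≤ Fintype.card V),
      (mapGraph α).IsHamiltonian) ∧
    (∀ {V : Type} [Fintype V] [DecidableEq V] (α : Equiv.Perm (V × Fin 3))
    (hα : ∀ d, α (α d) = d) (col : V × Fin 3 → Fin 3)
    (hface : ∀ d, col (faceStep α d) = col d)
    (hvert : ∀ v, Function.Injective fun i => col (v, i))
    (hlink : ∀ a b, Relation.EqvGen (SquareLink α col) a b)
    (hcard : 3 ≤ Fintype.card V),
      (mapGraph α).IsHamiltonian) :=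
  ⟨@Vale.Agent.Results.P039.AdjacentSquares.result, @Vale.Agent.Results.P039.SquareLinked.result⟩

end Vale.Agent.Results.P039.A0Conj
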