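import Vale.Agent.Lib.P039.Basic

/-!
Hamiltonicity of cubic maps with properly 3-coloured faces in which every edge between a face of
colour `0` and a face of colour `1` borders a face of length dividing 4.  In particular: if all
faces of one colour class are 4-gons, the (connected) graph is Hamiltonian, whatever the sizes of
the other faces.

A cubic map on the finite vertex set `V` is encoded by its darts `V × Fin 3`: the rotation is
`nextDart (v, i) = (v, i + 1)`, the edge involution is `α`, and the faces are the orbits of
`faceStep α = nextDart ∘ α`.  Every cubic bipartite plane graph is of this form, taking the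
rotation system of the embedding; no planarity is assumed here.
-/

namespace Vale.Agent.Results.P039.AdjacentSquares

open Vale.Agent.Lib.P039

private lemma link_of_alpha {V : Type} [Fintype V] [DecidableEq V] (α : Equiv.Perm (V × Fin 3))
    (hα : ∀ d, α (α d) = d) (col : V × Fin 3 → Fin 3)
    (hface : ∀ d, col (faceStep α d) = col d)
    (hvert : ∀ v, Function.Injective fun i => col (v, i))
    (hsq : ∀ d, col d = 0 → col (α d) = 1 →
      (faceStep α)^[4] d = d ∨ (faceStep α)^[4] (α d) = α d)
    {v w : V} {i j : Fin 3} (h : α (v, i) = (w, j)) :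
    Relation.EqvGen (SquareLink α col) v w := by
  have hback : α (w, j) = (v, i) := by rw [← h, hα]
  have hfw : faceStep α (v, i) = (w, j + 1) := by
    simp only [faceStep, h, nextDart]
  have hbw : faceStep α (w, j) = (v, i + 1) := by
    simp only [faceStep, hback, nextDart]
  have hforward : (col (v, i) = 2 ∨ (faceStep α)^[4] (v, i) = (v, i)) →
      Relation.EqvGen (SquareLink α col) v w := fun hc =>
    Relation.EqvGen.rel _ _ ⟨i, j + 1, 1, hfw, hc⟩
  have hbackward : (col (w, j) = 2 ∨ (faceStep α)^[4] (w, j) = (w, j)) →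
      Relation.EqvGen (SquareLink α col) v w := fun hc =>
    Relation.EqvGen.symm _ _ (Relation.EqvGen.rel _ _ ⟨j, i + 1, 1, hbw, hc⟩)
  have hcol : col (w, j) = col (v, i + 1) := by
    have h1 := hface (w, j)
    rw [hbw] at h1
    exact h1.symm
  have hne : col (v, i + 1) ≠ col (v, i) := fun hc =>
    (by decide : ∀ i : Fin 3, i + 1 ≠ i) i (hvert v (a₁ := i + 1) (a₂ := i) hc)
  by_cases h2 : col (v, i) = 2
  · exact hforward (Or.inl h2)
  by_cases h3 : col (w, j) = 2
  · exact hbackward (Or.inl h3)
  rw [← hcol] at hne
  have hcases : (col (v, i) = 0 ∧ col (w, j) = 1) ∨ (col (v, i) = 1 ∧ col (w, j) = 0) :=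
    (by decide : ∀ a b : Fin 3, a ≠ 2 → b ≠ 2 → b ≠ a → (a = 0 ∧ b = 1) ∨ (a = 1 ∧ b = 0))
      _ _ h2 h3 hne
  rcases hcases with ⟨h4, h5⟩ | ⟨h4, h5⟩
  · rcases hsq (v, i) h4 (by rw [h]; exact h5) with h6 | h6
    · exact hforward (Or.inr h6)
    · rw [h] at h6
      exact hbackward (Or.inr h6)
  · rcases hsq (w, j) h5 (by rw [hback]; exact h4) with h6 | h6
    · exact hbackward (Or.inr h6)
    · rw [hback] at h6
      exact hforward (Or.inr h6)

theorem result {V : Type} [Fintype V] [DecidableEq V] (α : Equiv.Perm (V × Fin 3))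
    (hα : ∀ d, α (α d) = d) (col : V × Fin 3 → Fin 3)
    (hface : ∀ d, col (faceStep α d) = col d)
    (hvert : ∀ v, Function.Injective fun i => col (v, i))
    (hconn : (mapGraph α).Connected)
    (hsq : ∀ d, col d = 0 → col (α d) = 1 →
      (faceStep α)^[4] d = d ∨ (faceStep α)^[4] (α d) = α d)
    (hcard : 3 ≤ Fintype.card V) :
    (mapGraph α).IsHamiltonian := by
  refine isHamiltonian_of_links α hα col hface hvert ?_ hcard
  intro a b
  have hreach := hconn.preconnected a b
  rw [SimpleGraph.reachable_iff_reflTransGen] at hreach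
  induction hreach with
  | refl => exact Relation.EqvGen.refl _
  | tail _ hadj ih =>
    refine Relation.EqvGen.trans _ _ _ ih ?_
    rw [mapGraph, SimpleGraph.fromRel_adj] at hadj
    rcases hadj.2 with ⟨i, j, h⟩ | ⟨i, j, h⟩
    · exact link_of_alpha α hα col hface hvert hsq h
    · exact Relation.EqvGen.symm _ _ (link_of_alpha α hα col hface hvert hsq h)

end Vale.Agent.Results.P039.AdjacentSquares
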